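import Vale.Agent.P133.R2.H474.NS3

/-!
P133 (helper474): two orthogonal elements of `closure (a A a)`, each generating the cuts of `a`,
exist if and only if there are nowhere scalar elements.
-/

open scoped ComplexOrder

namespace Vale.Agent.P133.R2.H474

open Vale.Agent.P133 Vale.Agent.P133.H832

universe u

section

variable {A : Type u} [NonUnitalCStarAlgebra A]

theorem cut_cut {a : A} {δ : ℝ} (hδ : 0 < δ) :
    cfcₙ (fun t : ℝ => max (t - δ / 2) 0) (cfcₙ (fun t : ℝ => max (t - δ / 2) 0) a) =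
      cfcₙ (fun t : ℝ => max (t - δ) 0) a := by
  have h0 : (fun t : ℝ => max (t - δ / 2) 0) 0 = 0 := max_eq_right (by linarith)
  by_cases ha : IsSelfAdjoint a
  · rw [← cfcₙ_comp (fun t : ℝ => max (t - δ / 2) 0) (fun t : ℝ => max (t - δ / 2) 0) a
      (by fun_prop) h0 (by fun_prop) h0]
    refine cfcₙ_congr fun t _ => ?_
    simp only [Function.comp]
    rcases le_total t δ with h | h
    · have h1 : max (t - δ) 0 = 0 := max_eq_right (by linarith)
      rw [h1]
      exact max_eq_right (by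
        have : max (t - δ / 2) 0 ≤ δ / 2 := max_le (by linarith) (by linarith)
        linarith)
    · have h1 : max (t - δ) 0 = t - δ := max_eq_left (by linarith)
      have h2 : max (t - δ / 2) 0 = t - δ / 2 := max_eq_left (by linarith)
      rw [h1, h2, max_eq_left (by linarith)]
      ring
  · rw [cfcₙ_apply_of_not_predicate a ha, cfcₙ_apply_of_not_predicate a ha, cfcₙ_apply_zero]

variable [PartialOrder A] [StarOrderedRing A]

/-- The first of two orthogonal elements is nowhere scalar. -/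
theorem nowhere_scalar_of_orth {a c b₁ b₂ : A} (h1 : 0 ≤ b₁) (h12 : b₁ * b₂ = 0)
    (ha1 : b₁ ∈ closure (Set.range fun w => a * w * a))
    (ha2 : b₂ ∈ closure (Set.range fun w => a * w * a)) (hI1 : InId b₁ c) (hI2 : InId b₂ c)
    {P : Submodule ℂ A} (hP : IsClosedIdeal P) (hc : c ∉ P) (l : ℝ) :
    b₁ * a - l • a ∉ P := by
  intro hmem
  have hkey : ∀ x : A, x ∈ closure (Set.range fun w => a * w * a) → b₁ * x - l • x ∈ P := by
    intro x hx
    have h3 : b₁ * x - l • x ∈ closure (P : Set A) := by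
      refine map_mem_closure (f := fun x : A => b₁ * x - l • x) (by fun_prop) hx ?_
      rintro _ ⟨w, rfl⟩
      have h4 : b₁ * (a * w * a) - l • (a * w * a) = (b₁ * a - l • a) * (w * a) := by
        simp only [sub_mul, smul_mul_assoc, mul_assoc]
      show b₁ * (a * w * a) - l • (a * w * a) ∈ P
      rw [h4]
      exact (hP.2 _ _ hmem).2
    rwa [hP.1.closure_eq] at h3
  have h2 := hkey _ ha2
  rw [h12, zero_sub] at h2
  by_cases hl : l = 0
  · have h3 := hkey _ ha1
    rw [hl, zero_smul, sub_zero] at h3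
    have h4 : b₁ ∈ P := hP.of_star_mul_self (by rwa [(IsSelfAdjoint.of_nonneg h1).star_eq])
    exact hc (hP.inId h4 hI1)
  · have h3 : b₂ ∈ P := by
      have h4 := P.smul_mem (-((l⁻¹ : ℝ) : ℂ)) h2
      have h5 : -((l⁻¹ : ℝ) : ℂ) • -(l • b₂) = b₂ := by
        rw [smul_neg, neg_smul, neg_neg, Complex.coe_smul, smul_smul, inv_mul_cancel₀ hl, one_smul]
      rwa [h5] at h4
    exact hc (hP.inId h3 hI2)

/-- Two orthogonal elements or one nowhere scalar element. -/
theorem orth_iff_nowhere_scalar {a : A} (ha : 0 ≤ a) :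
    (∀ δ : ℝ, 0 < δ → ∃ b₁ b₂ : A, 0 ≤ b₁ ∧ 0 ≤ b₂ ∧ b₁ * b₂ = 0 ∧
      b₁ ∈ closure (Set.range fun w => a * w * a) ∧ b₂ ∈ closure (Set.range fun w => a * w * a) ∧
      InId b₁ (cfcₙ (fun t : ℝ => max (t - δ) 0) a) ∧
      InId b₂ (cfcₙ (fun t : ℝ => max (t - δ) 0) a)) ↔
    ∀ δ : ℝ, 0 < δ → ∃ d : A, IsSelfAdjoint d ∧ d ∈ closure (Set.range fun w => a * w * a) ∧
      ∀ P : Submodule ℂ A, IsClosedIdeal P → cfcₙ (fun t : ℝ => max (t - δ) 0) a ∉ P →
        ∀ l : ℝ, d * a - l • a ∉ P := by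
  constructor
  · intro h δ hδ
    obtain ⟨b₁, b₂, h1, -, h12, ha1, ha2, hI1, hI2⟩ := h δ hδ
    exact ⟨b₁, IsSelfAdjoint.of_nonneg h1, ha1, fun P hP hc l =>
      nowhere_scalar_of_orth h1 h12 ha1 ha2 hI1 hI2 hP hc l⟩
  · intro h δ hδ
    obtain ⟨d, hd, hda, H⟩ := h (δ / 2) (half_pos hδ)
    have := orth_of_nowhere_scalar ha (cfcₙ_nonneg fun s _ => le_max_right _ _) hd hda H
      (half_pos hδ)
    rwa [cut_cut hδ] at this

end

end Vale.Agent.P133.R2.H474
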