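import Vale.Agent.P133.R2.H474.NS1

/-!
P133 (helper474): hereditary subalgebras `closure (a A a)` and functions of a selfadjoint `d`
acting from the left and from the right (also functions with `f 0 ≠ 0`).
-/

open scoped ComplexOrder

namespace Vale.Agent.P133.R2.H474

open Vale.Agent.P133 Vale.Agent.P133.H832

universe u

section

variable {A : Type u} [NonUnitalCStarAlgebra A]

/-- the closure of `a A a` -/
def her (a : A) : Submodule ℂ A where
  carrier := closure (Set.range fun w => a * w * a)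
  zero_mem' := subset_closure ⟨0, by simp⟩
  add_mem' := by
    intro x y hx hy
    refine map_mem_closure₂ (f := fun x y : A => x + y) (by fun_prop) hx hy ?_
    rintro _ ⟨v, rfl⟩ _ ⟨w, rfl⟩
    exact ⟨v + w, by simp only [mul_add, add_mul]⟩
  smul_mem' := by
    intro c x hx
    refine map_mem_closure (f := fun x : A => c • x) (by fun_prop) hx ?_
    rintro _ ⟨v, rfl⟩
    exact ⟨c • v, by simp only [mul_smul_comm, smul_mul_assoc]⟩

theorem mem_her {a x : A} : x ∈ her a ↔ x ∈ closure (Set.range fun w => a * w * a) := Iff.rfl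

theorem her_self (a w : A) : a * w * a ∈ her a := subset_closure ⟨w, rfl⟩

theorem her_closed (a : A) : IsClosed (her a : Set A) := isClosed_closure

theorem her_lim {a x : A} (h : ∀ ε : ℝ, 0 < ε → ∃ y ∈ her a, ‖y - x‖ < ε) : x ∈ her a := by
  have h1 : x ∈ closure (her a : Set A) := Metric.mem_closure_iff.2 fun ε hε => by
    obtain ⟨y, hy, h1⟩ := h ε hε
    exact ⟨y, hy, by rw [dist_comm, dist_eq_norm]; exact h1⟩
  rwa [(her_closed a).closure_eq] at h1

theorem her_mid {a x z : A} (hx : x ∈ her a) (y : A) (hz : z ∈ her a) : x * y * z ∈ her a := by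
  refine map_mem_closure₂ (f := fun x z : A => x * y * z) (by fun_prop) hx hz ?_
  rintro _ ⟨v, rfl⟩ _ ⟨w, rfl⟩
  exact ⟨v * a * y * a * w, by simp only [mul_assoc]⟩

theorem her_mul {a x z : A} (hx : x ∈ her a) (hz : z ∈ her a) : x * z ∈ her a := by
  refine map_mem_closure₂ (f := fun x z : A => x * z) (by fun_prop) hx hz ?_
  rintro _ ⟨v, rfl⟩ _ ⟨w, rfl⟩
  exact ⟨v * a * a * w, by simp only [mul_assoc]⟩

theorem her_star {a x : A} (ha : star a = a) (hx : x ∈ her a) : star x ∈ her a := by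
  refine map_mem_closure (f := fun x : A => star x) continuous_star hx ?_
  rintro _ ⟨v, rfl⟩
  exact ⟨star v, by simp only [star_mul, ha, mul_assoc]⟩


theorem her_cfc {a d : A} (hd : IsSelfAdjoint d) (hda : d ∈ her a) {f : ℝ → ℝ}
    (hf : Continuous f) (hf0 : f 0 = 0) : cfcₙ f d ∈ her a := by
  refine her_lim fun ε hε => ?_
  obtain ⟨δ, hδ, hfδ⟩ := Metric.continuousAt_iff.1 (hf.continuousAt (x := 0)) (ε / 2) (half_pos hε)
  have hm : ∀ s : ℝ, 0 < (max |s| (δ / 2)) ^ 2 := fun s => by
    have : δ / 2 ≤ max |s| (δ / 2) := le_max_right _ _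
    positivity
  set g : ℝ → ℝ := fun s => f s / (max |s| (δ / 2)) ^ 2 with hg
  have hgc : Continuous g := Continuous.div hf (by fun_prop) fun s => (hm s).ne'
  have hg0 : g 0 = 0 := by simp only [hg, hf0, zero_div]
  refine ⟨d * cfcₙ g d * d, her_mid hda _ hda, ?_⟩
  have hc1 : Continuous fun s => s * g s := continuous_id.mul hgc
  have hc2 : Continuous fun s => s * g s * s := hc1.mul continuous_id
  have e1 : d * cfcₙ g d * d - cfcₙ f d = cfcₙ (fun s => s * g s * s - f s) d := by
    rw [cfcₙ_sub (fun s => s * g s * s) f d hc2.continuousOn (by simp) hf.continuousOn hf0,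
      cfcₙ_mul (fun s => s * g s) (fun s => s) d hc1.continuousOn (by simp) (by fun_prop) rfl,
      cfcₙ_mul (fun s => s) g d (by fun_prop) rfl hgc.continuousOn hg0, cfcₙ_id' ℝ d]
  rw [e1]
  refine lt_of_le_of_lt (norm_cfcₙ_le fun s _ => ?_) (half_lt_self hε)
  have e2 : s * g s * s - f s = (s ^ 2 / (max |s| (δ / 2)) ^ 2 - 1) * f s := by
    simp only [hg]; ring
  rcases le_total (δ / 2) |s| with h | h
  · have h1 : s ^ 2 / (max |s| (δ / 2)) ^ 2 = 1 := by
      rw [max_eq_left h, sq_abs, div_self]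
      have : 0 < |s| := by linarith
      exact (pow_pos (abs_pos.1 this |> abs_pos.2) 2 |> fun h => by rw [sq_abs] at h; exact h.ne')
    rw [e2, h1, sub_self, zero_mul, norm_zero]
    exact (half_pos hε).le
  · have h1 : ‖f s‖ ≤ ε / 2 := by
      have h2 : dist s 0 < δ := by rw [dist_zero_right, Real.norm_eq_abs]; linarith
      have := hfδ h2
      rw [hf0, dist_zero_right] at this
      exact this.le
    have h3 : s ^ 2 / (max |s| (δ / 2)) ^ 2 ≤ 1 := by
      rw [div_le_one (hm s), sq_le_sq, abs_of_pos (lt_of_lt_of_le (half_pos hδ) (le_max_right _ _))]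
      exact le_max_left _ _
    have h4 : 0 ≤ s ^ 2 / (max |s| (δ / 2)) ^ 2 := by positivity
    have h5 : ‖s ^ 2 / (max |s| (δ / 2)) ^ 2 - 1‖ ≤ 1 := by
      rw [Real.norm_eq_abs, abs_le]; constructor <;> linarith
    rw [e2, norm_mul]
    calc _ ≤ 1 * (ε / 2) := mul_le_mul h5 h1 (norm_nonneg _) zero_le_one
      _ = ε / 2 := one_mul _

/-- `f(d) b` -/
noncomputable def Lf (d : A) (f : ℝ → ℝ) (b : A) : A := f 0 • b + cfcₙ (fun s => f s - f 0) d * b

/-- `b f(d)` -/
noncomputable def Rf (d : A) (b : A) (f : ℝ → ℝ) : A := f 0 • b + b * cfcₙ (fun s => f s - f 0) d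

theorem Rf_mul_Lf {d : A} {f g : ℝ → ℝ} (hf : Continuous f) (hg : Continuous g)
    (h : ∀ s, g s * f s = 0) (u v : A) : Rf d u g * Lf d f v = 0 := by
  have h0 : g 0 * f 0 = 0 := h 0
  have hF : Continuous fun s => f s - f 0 := by fun_prop
  have hG : Continuous fun s => g s - g 0 := by fun_prop
  set F : A := cfcₙ (fun s => f s - f 0) d with hFd
  set G : A := cfcₙ (fun s => g s - g 0) d with hGd
  have e1 : g 0 • F + f 0 • G + G * F = 0 := by
    rw [hFd, hGd, ← cfcₙ_smul (g 0) (fun s => f s - f 0) d hF.continuousOn (by simp),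
      ← cfcₙ_smul (f 0) (fun s => g s - g 0) d hG.continuousOn (by simp),
      ← cfcₙ_mul (fun s => g s - g 0) (fun s => f s - f 0) d hG.continuousOn (by simp)
        hF.continuousOn (by simp),
      ← cfcₙ_add (fun s => g 0 • (f s - f 0)) (fun s => f 0 • (g s - g 0)) d
        (by fun_prop) (by simp) (by fun_prop) (by simp),
      ← cfcₙ_add (fun s => g 0 • (f s - f 0) + f 0 • (g s - g 0))
        (fun s => (g s - g 0) * (f s - f 0)) d
        (by fun_prop) (by simp) (by fun_prop) (by simp)]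
    have : (fun s => g 0 • (f s - f 0) + f 0 • (g s - g 0) + (g s - g 0) * (f s - f 0)) =
        fun _ => (0 : ℝ) := by
      funext s
      simp only [smul_eq_mul]
      linear_combination h s - h0
    rw [this, cfcₙ_const_zero]
  have e2 : Rf d u g * Lf d f v = (g 0 * f 0) • (u * v) + u * (g 0 • F + f 0 • G + G * F) * v := by
    simp only [Rf, Lf, ← hFd, ← hGd]
    rw [add_mul, mul_add, mul_add, smul_mul_smul_comm]
    simp only [mul_add, add_mul, smul_mul_assoc, mul_smul_comm, mul_assoc]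
    abel
  rw [e2, e1, h0, zero_smul, mul_zero, zero_mul, add_zero]

theorem Rf_Lf (d : A) (f g : ℝ → ℝ) (b : A) : Rf d (Lf d f b) g = Lf d f (Rf d b g) := by
  simp only [Rf, Lf]
  simp only [mul_add, add_mul, smul_add, smul_mul_assoc, mul_smul_comm, mul_assoc, smul_smul]
  rw [mul_comm (g 0) (f 0)]
  abel

theorem Lf_mul (d : A) (f : ℝ → ℝ) (b c : A) : Lf d f (b * c) = Lf d f b * c := by
  simp only [Lf, add_mul, smul_mul_assoc, mul_assoc]

theorem mul_Rf (d : A) (g : ℝ → ℝ) (b c : A) : Rf d (b * c) g = b * Rf d c g := by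
  simp only [Rf, mul_add, mul_smul_comm, mul_assoc]

theorem star_Rf {d : A} (g : ℝ → ℝ) (b : A) : star (Rf d b g) = Lf d g (star b) := by
  simp only [Rf, Lf, star_add, star_smul, star_trivial, star_mul]
  rw [(cfcₙ_predicate (p := IsSelfAdjoint) (fun s => g s - g 0) d).star_eq]

theorem her_Lf {a d b : A} (hd : IsSelfAdjoint d) (hda : d ∈ her a) {f : ℝ → ℝ}
    (hf : Continuous f) (hb : b ∈ her a) : Lf d f b ∈ her a := by
  refine (her a).add_mem ?_ (her_mul (her_cfc hd hda (by fun_prop) (by simp)) hb)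
  have : f 0 • b = ((f 0 : ℝ) : ℂ) • b := (Complex.coe_smul _ _).symm
  rw [this]
  exact (her a).smul_mem _ hb

theorem her_Rf {a d b : A} (hd : IsSelfAdjoint d) (hda : d ∈ her a) {f : ℝ → ℝ}
    (hf : Continuous f) (hb : b ∈ her a) : Rf d b f ∈ her a := by
  refine (her a).add_mem ?_ (her_mul hb (her_cfc hd hda (by fun_prop) (by simp)))
  have : f 0 • b = ((f 0 : ℝ) : ℂ) • b := (Complex.coe_smul _ _).symm
  rw [this]
  exact (her a).smul_mem _ hb

end

end Vale.Agent.P133.R2.H474
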