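import Vale.Agent.P133.R2.H28.MDefs
import Vale.Agent.P133.R2.H474.NS2

/-!
P133 (helper474): the hereditary subalgebra `closure (a A a)` as a C*-algebra: it is weakly purely
infinite and has a sequential approximate unit.
-/

open scoped ComplexOrder

namespace Vale.Agent.P133.R2.H474

open Vale.Agent.P133 Vale.Agent.P133.Statement Vale.Agent.P133.H832 Vale.Agent.P133F
  Vale.Agent.P133.H681 Vale.Agent.P133.R2.H28

universe u v

section

variable {A : Type u} [NonUnitalCStarAlgebra A]

theorem self_mem_her {a : A} (ha : IsSelfAdjoint a) : a ∈ her a := by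
  refine her_lim fun ε hε => ?_
  have hm : ∀ s : ℝ, 0 < (max |s| (ε / 2)) ^ 2 := fun s => by
    have : ε / 2 ≤ max |s| (ε / 2) := le_max_right _ _
    have h2 : 0 < ε / 2 := half_pos hε
    positivity
  set g : ℝ → ℝ := fun s => s / (max |s| (ε / 2)) ^ 2 with hg
  have hgc : Continuous g := Continuous.div continuous_id (by fun_prop) fun s => (hm s).ne'
  have hg0 : g 0 = 0 := by simp only [hg, zero_div]
  refine ⟨a * cfcₙ g a * a, her_self _ _, ?_⟩
  have hc1 : Continuous fun s => s * g s := continuous_id.mul hgc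
  have hc2 : Continuous fun s => s * g s * s := hc1.mul continuous_id
  have e1 : a * cfcₙ g a * a - a = cfcₙ (fun s => s * g s * s - s) a := by
    rw [cfcₙ_sub (fun s => s * g s * s) (fun s => s) a hc2.continuousOn (by simp)
        (by fun_prop) rfl,
      cfcₙ_mul (fun s => s * g s) (fun s => s) a hc1.continuousOn (by simp) (by fun_prop) rfl,
      cfcₙ_mul (fun s => s) g a (by fun_prop) rfl hgc.continuousOn hg0, cfcₙ_id' ℝ a]
  rw [e1]
  refine lt_of_le_of_lt (norm_cfcₙ_le fun s _ => ?_) (half_lt_self hε)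
  have e2 : s * g s * s - s = (s ^ 2 / (max |s| (ε / 2)) ^ 2 - 1) * s := by
    simp only [hg]; ring
  rcases le_total (ε / 2) |s| with h | h
  · have h1 : s ^ 2 / (max |s| (ε / 2)) ^ 2 = 1 := by
      rw [max_eq_left h, sq_abs, div_self]
      have : 0 < |s| := by linarith [half_pos hε]
      exact pow_ne_zero 2 (abs_pos.1 this)
    rw [e2, h1, sub_self, zero_mul, norm_zero]
    exact (half_pos hε).le
  · have h3 : s ^ 2 / (max |s| (ε / 2)) ^ 2 ≤ 1 := by
      rw [div_le_one (hm s), sq_le_sq,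
        abs_of_pos (lt_of_lt_of_le (half_pos hε) (le_max_right _ _))]
      exact le_max_left _ _
    have h4 : 0 ≤ s ^ 2 / (max |s| (ε / 2)) ^ 2 := by positivity
    have h5 : ‖s ^ 2 / (max |s| (ε / 2)) ^ 2 - 1‖ ≤ 1 := by
      rw [Real.norm_eq_abs, abs_le]; constructor <;> linarith
    rw [e2, norm_mul]
    calc _ ≤ 1 * (ε / 2) := mul_le_mul h5 (by rw [Real.norm_eq_abs]; exact h) (norm_nonneg _)
          zero_le_one
      _ = ε / 2 := one_mul _

/-- `closure (a A a)` as a subalgebra -/
def herAlg (a : A) (ha : star a = a) : NonUnitalStarSubalgebra ℂ A where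
  carrier := (her a : Set A)
  zero_mem' := (her a).zero_mem
  add_mem' hx hy := (her a).add_mem hx hy
  smul_mem' c _ hx := (her a).smul_mem c hx
  mul_mem' hx hy := her_mul hx hy
  star_mem' hx := her_star ha hx

theorem herAlg_closed (a : A) (ha : star a = a) : IsClosed (herAlg a ha : Set A) := her_closed a

/-- the functions of the approximate unit -/
noncomputable def fk (k : ℕ) : ℝ → ℝ := fun s => max 0 (min 1 (2 ^ (k + 1) * s - 1))

theorem fk_cont (k : ℕ) : Continuous (fk k) := by unfold fk; fun_prop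

theorem fk_zero (k : ℕ) : fk k 0 = 0 := by simp [fk]

theorem fk_nonneg (k : ℕ) (s : ℝ) : 0 ≤ fk k s := le_max_left _ _

theorem fk_le (k : ℕ) (s : ℝ) : fk k s ≤ 1 := max_le zero_le_one (min_le_left _ _)

theorem fk_one {k : ℕ} {s : ℝ} (h : 2 ≤ 2 ^ (k + 1) * s) : fk k s = 1 := by
  unfold fk
  rw [min_eq_left (by linarith), max_eq_right zero_le_one]

theorem fk_mul {k l : ℕ} (h : k < l) (s : ℝ) : fk k s * fk l s = fk k s := by
  rcases le_or_gt (2 ^ (k + 1) * s) 1 with h1 | h1
  · have : fk k s = 0 := by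
      unfold fk
      rw [max_eq_left]
      exact (min_le_right _ _).trans (by linarith)
    rw [this, zero_mul]
  · have h2 : fk l s = 1 := by
      apply fk_one
      have h3 : 0 < s := by
        by_contra hs
        have : 2 ^ (k + 1) * s ≤ 0 := mul_nonpos_of_nonneg_of_nonpos (by positivity) (not_lt.1 hs)
        linarith
      have h4 : (2 : ℝ) ^ (k + 2) ≤ 2 ^ (l + 1) := pow_le_pow_right₀ one_le_two (by omega)
      calc (2 : ℝ) ≤ 2 * (2 ^ (k + 1) * s) := by linarith
        _ = 2 ^ (k + 2) * s := by ring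
        _ ≤ 2 ^ (l + 1) * s := mul_le_mul_of_nonneg_right h4 h3.le
    rw [h2, mul_one]

theorem fk_sub {k : ℕ} {s : ℝ} (hs : 0 ≤ s) : ‖fk k s * s - s‖ ≤ 1 / 2 ^ k := by
  rcases le_or_gt 2 (2 ^ (k + 1) * s) with h | h
  · rw [fk_one h, one_mul, sub_self, norm_zero]
    positivity
  · have h1 : s ≤ 1 / 2 ^ k := by
      rw [le_div_iff₀ (by positivity)]
      have : 2 ^ (k + 1) * s = 2 * (s * 2 ^ k) := by ring
      linarith
    have h2 := fk_nonneg k s
    have h3 := fk_le k s
    rw [Real.norm_eq_abs, abs_le]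
    constructor
    · nlinarith
    · nlinarith

end

section

variable {A : Type u} [NonUnitalCStarAlgebra A] [PartialOrder A] [StarOrderedRing A]
variable {B : Type v} [NonUnitalCStarAlgebra B] [PartialOrder B] [StarOrderedRing B]

/-- hereditary subalgebras of weakly purely infinite algebras -/
theorem wpi_of_her {n : ℕ} (φ : B →⋆ₙₐ[ℂ] A) (hφ : Function.Injective φ)
    (hher : ∀ (x y : B) (w : A), ∃ z, φ z = φ x * w * φ y) (hA : WPI A n) : WPI B n := by
  intro h h0 M ε hε
  have h0' : 0 ≤ φ h := by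
    obtain ⟨k, rfl⟩ := CStarAlgebra.nonneg_iff_eq_star_mul_self.1 h0
    rw [map_mul, map_star]
    exact star_mul_self_nonneg _
  obtain ⟨z, hz⟩ := hA (φ h) h0' M (ε / 2) (by positivity)
  obtain ⟨C, hC⟩ : ∃ C : ℝ, C = ∑ i, ∑ j, ‖z i j‖ := ⟨_, rfl⟩
  have hC0 : 0 ≤ C := by
    rw [hC]; positivity
  have hzC : ∀ i j, ‖z i j‖ ≤ C := by
    intro i j
    rw [hC]
    refine le_trans ?_ (Finset.single_le_sum (f := fun i => ∑ j, ‖z i j‖)
      (fun i _ => by positivity) (Finset.mem_univ i))
    exact Finset.single_le_sum (f := fun j => ‖z i j‖) (fun j _ => norm_nonneg _)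
      (Finset.mem_univ j)
  obtain ⟨δ, hδ⟩ : ∃ δ : ℝ, δ = ε / 2 / (n * (C * C) + 1) := ⟨_, rfl⟩
  have hnC : 0 < (n : ℝ) * (C * C) + 1 := by positivity
  have hδ0 : 0 < δ := by rw [hδ]; positivity
  have hδ1 : n * (C * δ * C) + δ = ε / 2 := by
    rw [hδ]
    field_simp
  obtain ⟨g, hgs, hg1, hgh⟩ := exists_g h hδ0
  choose y hy using fun (i : Fin n) (j : Fin M) => hher g g (z i j)
  refine ⟨y, fun j j' => ?_⟩
  have hnorm : ∀ w : B, ‖w‖ = ‖φ w‖ := fun w =>
    (NonUnitalStarAlgHom.norm_map φ hφ w).symm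
  have hG : star (φ g) = φ g := by rw [← map_star, hgs]
  have hG1 : ‖φ g‖ ≤ 1 := by rw [← hnorm]; exact hg1
  have hgh' : ‖φ (g * h * g - h)‖ ≤ δ := by rw [← hnorm]; exact hgh
  have e : φ (∑ i, star (y i j) * h * y i j' - (if j = j' then h else 0)) =
      φ g * (∑ i, star (z i j) * φ h * z i j' - (if j = j' then φ h else 0)) * φ g +
      φ g * (∑ i, star (z i j) * φ (g * h * g - h) * z i j') * φ g +
      (if j = j' then φ (g * h * g - h) else 0) := by
    rw [map_sub, map_sum]
    have e1 : ∀ i, φ (star (y i j) * h * y i j') =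
        φ g * (star (z i j) * φ h * z i j') * φ g +
        φ g * (star (z i j) * φ (g * h * g - h) * z i j') * φ g := by
      intro i
      rw [map_mul, map_mul, map_star, hy, hy, star_mul, star_mul, hG, map_sub, map_mul, map_mul]
      noncomm_ring
    simp only [e1]
    rw [mul_sub, sub_mul, Finset.mul_sum, Finset.sum_mul, Finset.sum_add_distrib,
      Finset.mul_sum, Finset.sum_mul]
    split_ifs with hj
    · rw [map_sub, map_mul, map_mul]; abel
    · simp
  rw [hnorm, e]
  have n1 : ‖φ g * (∑ i, star (z i j) * φ h * z i j' - (if j = j' then φ h else 0)) * φ g‖ <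
      ε / 2 := by
    refine lt_of_le_of_lt ?_ (hz j j')
    calc _ ≤ 1 * ‖∑ i, star (z i j) * φ h * z i j' - (if j = j' then φ h else 0)‖ * 1 :=
          norm_mul_le_of_le (norm_mul_le_of_le hG1 le_rfl) hG1
      _ = _ := by ring
  have n2 : ‖φ g * (∑ i, star (z i j) * φ (g * h * g - h) * z i j') * φ g‖ ≤
      n * (C * δ * C) := by
    calc _ ≤ 1 * (n * (C * δ * C)) * 1 := by
          refine norm_mul_le_of_le (norm_mul_le_of_le hG1 ?_) hG1
          refine (norm_sum_le _ _).trans ?_
          refine (Finset.sum_le_card_nsmul _ _ (C * δ * C) fun i _ => ?_).trans ?_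
          · refine norm_mul_le_of_le (norm_mul_le_of_le ?_ hgh') (hzC i j')
            rw [norm_star]
            exact hzC i j
          · rw [Finset.card_univ, Fintype.card_fin, nsmul_eq_mul]
      _ = _ := by ring
  have n3 : ‖(if j = j' then φ (g * h * g - h) else 0)‖ ≤ δ := by
    split_ifs
    · exact hgh'
    · rw [norm_zero]; exact hδ0.le
  calc _ ≤ ‖φ g * (∑ i, star (z i j) * φ h * z i j' - (if j = j' then φ h else 0)) * φ g‖ +
      ‖φ g * (∑ i, star (z i j) * φ (g * h * g - h) * z i j') * φ g‖ +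
      ‖(if j = j' then φ (g * h * g - h) else 0)‖ := norm_add₃_le
    _ < ε := by linarith

end

section

variable {A : Type u} [NonUnitalCStarAlgebra A] [PartialOrder A] [StarOrderedRing A]

/-- **M4** -/
theorem her_data {n : ℕ} (hA : WPI A n) {a : A} (ha : 0 ≤ a) :
    ∃ (B : Type u) (_ : NonUnitalCStarAlgebra B) (_ : PartialOrder B) (_ : StarOrderedRing B)
      (φ : B →⋆ₙₐ[ℂ] A) (e : ℕ → B), Function.Injective φ ∧
      (∀ x, x ∈ Set.range φ ↔ x ∈ closure (Set.range fun w => a * w * a)) ∧ WPI B n ∧ AU e := by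
  have hsa : IsSelfAdjoint a := IsSelfAdjoint.of_nonneg ha
  have hs : star a = a := hsa.star_eq
  let S := herAlg a hs
  let i1 : NonUnitalCStarAlgebra S :=
    NonUnitalStarSubalgebra.nonUnitalCStarAlgebra S (h_closed := herAlg_closed a hs)
  let i2 : PartialOrder S := CStarAlgebra.spectralOrder S
  let i3 : StarOrderedRing S := CStarAlgebra.spectralOrderedRing S
  let φ : S →⋆ₙₐ[ℂ] A := NonUnitalStarSubalgebraClass.subtype S
  have hφ : Function.Injective φ := Subtype.val_injective
  have hval : ∀ x : S, φ x = (x : A) := fun x => rfl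
  have hnorm : ∀ x : S, ‖x‖ = ‖(x : A)‖ := fun x => rfl
  let e : ℕ → S := fun k => ⟨cfcₙ (fk k) a, her_cfc hsa (self_mem_her hsa) (fk_cont k) (fk_zero k)⟩
  refine ⟨S, i1, i2, i3, φ, e, hφ, ?_, ?_, ?_⟩
  · intro x
    constructor
    · rintro ⟨y, rfl⟩
      exact y.2
    · intro hx
      exact ⟨⟨x, hx⟩, rfl⟩
  · apply wpi_of_her φ hφ ?_ hA
    intro x y w
    exact ⟨⟨(x : A) * w * (y : A), her_mid x.2 w y.2⟩, rfl⟩
  · have hle : ∀ k, ‖cfcₙ (fk k) a‖ ≤ 1 := by
      intro k
      refine norm_cfcₙ_le fun s _ => ?_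
      rw [Real.norm_eq_abs, abs_of_nonneg (fk_nonneg k s)]
      exact fk_le k s
    refine ⟨fun k => ?_, fun k => ?_, fun k l hkl => ?_, fun b ε hε => ?_⟩
    · apply Subtype.ext
      exact (cfcₙ_predicate (R := ℝ) (fk k) a).star_eq
    · rw [hnorm]
      exact hle k
    · apply Subtype.ext
      show cfcₙ (fk k) a * cfcₙ (fk l) a = cfcₙ (fk k) a
      rw [← cfcₙ_mul (fk k) (fk l) a (fk_cont k).continuousOn (fk_zero k)
        (fk_cont l).continuousOn (fk_zero l)]
      congr 1
      funext s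
      exact fk_mul hkl s
    · obtain ⟨_, ⟨w, rfl⟩, hw⟩ := Metric.mem_closure_iff.1 (show (b : A) ∈ closure
        (Set.range fun w => a * w * a) from b.2) (ε / 4) (by positivity)
      rw [dist_eq_norm] at hw
      obtain ⟨K, hK⟩ := exists_pow_lt_of_lt_one (x := ε / 4 / (‖w * a‖ + 1)) (y := (1 / 2 : ℝ))
        (by positivity) (by norm_num)
      refine ⟨K, fun k hk => ?_⟩
      rw [hnorm]
      show ‖cfcₙ (fk k) a * (b : A) - b‖ < ε
      have h1 : ‖cfcₙ (fk k) a * a - a‖ ≤ (1 / 2) ^ K := by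
        have e1 : cfcₙ (fk k) a * a - a = cfcₙ (fun s => fk k s * s - s) a := by
          rw [cfcₙ_sub (fun s => fk k s * s) (fun s => s) a
            (((fk_cont k).mul continuous_id).continuousOn) (by simp) (by fun_prop) rfl,
            cfcₙ_mul (fk k) (fun s => s) a (fk_cont k).continuousOn (fk_zero k) (by fun_prop) rfl,
            cfcₙ_id' ℝ a]
        rw [e1]
        refine norm_cfcₙ_le fun s hs => ?_
        refine (fk_sub (quasispectrum_nonneg_of_nonneg a ha s hs)).trans ?_
        rw [one_div_pow]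
        apply one_div_le_one_div_of_le (by positivity)
        exact pow_le_pow_right₀ one_le_two hk
      have h2 : ‖cfcₙ (fk k) a * (a * w * a) - a * w * a‖ < ε / 4 := by
        have e1 : cfcₙ (fk k) a * (a * w * a) - a * w * a =
            (cfcₙ (fk k) a * a - a) * (w * a) := by noncomm_ring
        rw [e1]
        refine lt_of_le_of_lt (norm_mul_le _ _) ?_
        have h3 : (1 / 2 : ℝ) ^ K * (‖w * a‖ + 1) < ε / 4 := by
          rwa [lt_div_iff₀ (by positivity)] at hK
        refine lt_of_le_of_lt ?_ h3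
        exact mul_le_mul h1 (by linarith) (norm_nonneg _) (by positivity)
      have e2 : cfcₙ (fk k) a * (b : A) - b =
          cfcₙ (fk k) a * ((b : A) - a * w * a) + (cfcₙ (fk k) a * (a * w * a) - a * w * a) -
            ((b : A) - a * w * a) := by
        noncomm_ring
      have h4 : ‖cfcₙ (fk k) a * ((b : A) - a * w * a)‖ ≤ 1 * (ε / 4) :=
        norm_mul_le_of_le (hle k) hw.le
      rw [e2]
      calc _ ≤ ‖cfcₙ (fk k) a * ((b : A) - a * w * a) +
            (cfcₙ (fk k) a * (a * w * a) - a * w * a)‖ + ‖(b : A) - a * w * a‖ := norm_sub_le _ _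
        _ ≤ (‖cfcₙ (fk k) a * ((b : A) - a * w * a)‖ +
            ‖cfcₙ (fk k) a * (a * w * a) - a * w * a‖) + ‖(b : A) - a * w * a‖ := by
            gcongr
            exact norm_add_le _ _
        _ < ε := by linarith

end

end Vale.Agent.P133.R2.H474
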