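import Vale.Agent.P133.H832.Tame2

/-!
P133 (helper474): triangular families. If `w i * w j = 0` whenever `t i ≤ t j`, the positive and
the negative part of `∑ (w i (w i)* - (w i)* w i)` each generate a closed ideal containing
all `w i`.
-/

open scoped ComplexOrder

namespace Vale.Agent.P133.R2.H474

open Vale.Agent.P133 Vale.Agent.P133.H832

universe u

section

variable {A : Type u} [NonUnitalCStarAlgebra A] [PartialOrder A] [StarOrderedRing A]

theorem not_nonpos {ι : Type*} [Fintype ι] (w : ι → A) (i : ι) (hi : w i ≠ 0)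
    (h : ∀ j, w j * w i = 0) : ¬ (∑ j, (w j * star (w j) - star (w j) * w j)) ≤ 0 := by
  intro hle
  set u : A := w i * star (w i) with hu
  have hus : star u = u := by rw [hu, star_mul, star_star]
  have hu0 : 0 ≤ u := mul_star_self_nonneg _
  have h1 : ∀ j, u * (w j * star (w j) - star (w j) * w j) * u = u * (w j * star (w j)) * u := by
    intro j
    have h2 : w j * u = 0 := by rw [hu, ← mul_assoc, h j, zero_mul]
    rw [mul_sub, sub_mul]
    have h3 : u * (star (w j) * w j) * u = 0 := by
      have : u * (star (w j) * w j) * u = u * (star (w j) * (w j * u)) := by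
        simp only [mul_assoc]
      rw [this, h2, mul_zero, mul_zero]
    rw [h3, sub_zero]
  have h2 : u * (∑ j, (w j * star (w j) - star (w j) * w j)) * u =
      ∑ j, u * (w j * star (w j)) * u := by
    rw [Finset.mul_sum, Finset.sum_mul]
    exact Finset.sum_congr rfl fun j _ => h1 j
  have h3 : u * (∑ j, (w j * star (w j) - star (w j) * w j)) * u ≤ 0 := by
    have := star_left_conjugate_le_conjugate hle u
    rwa [hus, mul_zero, zero_mul] at this
  have h4 : u * (w i * star (w i)) * u ≤ ∑ j, u * (w j * star (w j)) * u := by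
    refine Finset.single_le_sum (f := fun j => u * (w j * star (w j)) * u) (fun j _ => ?_)
      (Finset.mem_univ i)
    have := star_left_conjugate_nonneg (mul_star_self_nonneg (w j)) u
    rwa [hus] at this
  have h5 : u * u * u ≤ 0 := by
    rw [h2] at h3
    exact h4.trans h3
  have h6 : 0 ≤ u * u * u := by
    have := star_left_conjugate_nonneg hu0 u
    rwa [hus] at this
  have h7 : u * u * u = 0 := le_antisymm h5 h6
  have h8 : u * u = 0 := by
    rw [← CStarRing.star_mul_self_eq_zero_iff, star_mul, hus]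
    have : u * u * (u * u) = u * u * u * u := by simp only [mul_assoc]
    rw [this, h7, zero_mul]
  have h9 : u = 0 := by
    rw [← CStarRing.star_mul_self_eq_zero_iff, hus]
    exact h8
  exact hi ((CStarRing.mul_star_self_eq_zero_iff _).1 h9)

theorem not_nonneg {ι : Type*} [Fintype ι] (w : ι → A) (i : ι) (hi : w i ≠ 0)
    (h : ∀ j, w i * w j = 0) : ¬ 0 ≤ ∑ j, (w j * star (w j) - star (w j) * w j) := by
  intro hle
  refine not_nonpos (fun j => star (w j)) i (fun h0 => hi (star_eq_zero.1 h0)) (fun j => ?_) ?_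
  · rw [← star_mul, h j, star_zero]
  · have : ∑ j, (star (w j) * star (star (w j)) - star (star (w j)) * star (w j)) =
        -∑ j, (w j * star (w j) - star (w j) * w j) := by
      rw [← Finset.sum_neg_distrib]
      refine Finset.sum_congr rfl fun j _ => ?_
      rw [star_star]
      abel
    rw [this]
    exact neg_nonpos.2 hle

/-- Triangular families. -/
theorem triangular {ι : Type*} [Fintype ι] (w : ι → A) (t : ι → ℝ)
    (hw : ∀ i j, t i ≤ t j → w i * w j = 0) {h : A}
    (hh : h = ∑ j, (w j * star (w j) - star (w j) * w j)) {P : Submodule ℂ A}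
    (hP : IsClosedIdeal P) (hmem : h⁺ ∈ P ∨ h⁻ ∈ P) (i : ι) : w i ∈ P := by
  classical
  have hs : IsSelfAdjoint h := by
    rw [IsSelfAdjoint, hh, star_sum]
    refine Finset.sum_congr rfl fun j _ => ?_
    simp only [star_sub, star_mul, star_star]
  obtain ⟨B, i1, i2, i3, φ, hφ, hk⟩ := hP.quot
  by_contra hcon
  have hne : φ (w i) ≠ 0 := fun h0 => hcon ((hk _).1 h0)
  have hsum : φ h = ∑ j, (φ (w j) * star (φ (w j)) - star (φ (w j)) * φ (w j)) := by
    rw [hh, map_sum]
    refine Finset.sum_congr rfl fun j _ => ?_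
    simp only [map_sub, map_mul, map_star]
  have hφh : φ h = φ h⁺ - φ h⁻ := by
    rw [← map_sub, CFC.posPart_sub_negPart h hs]
  have hmap : ∀ x : A, 0 ≤ x → 0 ≤ φ x := fun x hx => by
    have h1 : x = star (CFC.sqrt x) * CFC.sqrt x := by
      rw [(IsSelfAdjoint.of_nonneg (CFC.sqrt_nonneg x)).star_eq, CFC.sqrt_mul_sqrt_self x hx]
    rw [h1, map_mul, map_star]
    exact star_mul_self_nonneg _
  set F : Finset ι := Finset.univ.filter fun j => φ (w j) ≠ 0 with hF
  have hFne : F.Nonempty := ⟨i, by rw [hF, Finset.mem_filter]; exact ⟨Finset.mem_univ _, hne⟩⟩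
  rcases hmem with hmem | hmem
  · obtain ⟨m, hm, hmax⟩ := F.exists_max_image t hFne
    rw [hF, Finset.mem_filter] at hm
    refine not_nonpos (fun j => φ (w j)) m hm.2 (fun j => ?_) ?_
    · by_cases hj : φ (w j) = 0
      · rw [hj, zero_mul]
      · have h1 : t j ≤ t m := hmax j (by rw [hF, Finset.mem_filter]; exact ⟨Finset.mem_univ _, hj⟩)
        rw [← map_mul, hw j m h1, map_zero]
    · rw [← hsum, hφh, (hk _).2 hmem, zero_sub, neg_nonpos]
      exact hmap _ (CFC.negPart_nonneg h)
  · obtain ⟨m, hm, hmin⟩ := F.exists_min_image t hFne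
    rw [hF, Finset.mem_filter] at hm
    refine not_nonneg (fun j => φ (w j)) m hm.2 (fun j => ?_) ?_
    · by_cases hj : φ (w j) = 0
      · rw [hj, mul_zero]
      · have h1 : t m ≤ t j := hmin j (by rw [hF, Finset.mem_filter]; exact ⟨Finset.mem_univ _, hj⟩)
        rw [← map_mul, hw m j h1, map_zero]
    · rw [← hsum, hφh, (hk _).2 hmem, sub_zero]
      exact hmap _ (CFC.posPart_nonneg h)

end

end Vale.Agent.P133.R2.H474
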