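import Vale.Agent.P133.R2.H474.NS2

/-!
P133 (helper474): an element of `closure (a A a)` that is nowhere scalar gives two orthogonal
elements, each generating (up to a cut) the given ideal.
-/

open scoped ComplexOrder

namespace Vale.Agent.P133.R2.H474

open Vale.Agent.P133 Vale.Agent.P133.H832

universe u

/-- `(s - t)_+` -/
def xp (t : ℝ) : ℝ → ℝ := fun s => max (s - t) 0

/-- `(s - t)_-` -/
def yp (t : ℝ) : ℝ → ℝ := fun s => max (t - s) 0

theorem xp_cont (t : ℝ) : Continuous (xp t) := by unfold xp; fun_prop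

theorem yp_cont (t : ℝ) : Continuous (yp t) := by unfold yp; fun_prop

theorem yp_mul_xp {s t : ℝ} (h : s ≤ t) (r : ℝ) : yp s r * xp t r = 0 := by
  unfold yp xp
  rcases le_total r s with h1 | h1
  · rw [max_eq_right (by linarith : r - t ≤ 0), mul_zero]
  · rw [max_eq_right (by linarith : s - r ≤ 0), zero_mul]

theorem lip (s t r : ℝ) : |xp s r - xp t r| ≤ |s - t| ∧ |yp s r - yp t r| ≤ |s - t| := by
  unfold xp yp
  refine ⟨(abs_max_sub_max_le_abs _ _ _).trans ?_, (abs_max_sub_max_le_abs _ _ _).trans ?_⟩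
  · have : r - s - (r - t) = -(s - t) := by ring
    rw [this, abs_neg]
  · have : s - r - (t - r) = s - t := by ring
    rw [this]

section

variable {A : Type u} [NonUnitalCStarAlgebra A]

theorem norm_Lf_sub {d : A} {f g : ℝ → ℝ} (hf : Continuous f) (hg : Continuous g) {C : ℝ}
    (hC : ∀ s, |f s - g s| ≤ C) (b : A) : ‖Lf d f b - Lf d g b‖ ≤ 3 * C * ‖b‖ := by
  have e1 : Lf d f b - Lf d g b = (f 0 - g 0) • b +
      cfcₙ (fun s => (f s - f 0) - (g s - g 0)) d * b := by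
    rw [cfcₙ_sub (fun s => f s - f 0) (fun s => g s - g 0) d (by fun_prop) (by simp) (by fun_prop)
      (by simp)]
    simp only [Lf, sub_smul, sub_mul]
    abel
  rw [e1]
  have h1 : ‖(f 0 - g 0) • b‖ ≤ C * ‖b‖ := by
    rw [norm_smul, Real.norm_eq_abs]
    exact mul_le_mul_of_nonneg_right (hC 0) (norm_nonneg _)
  have h2 : ‖cfcₙ (fun s => (f s - f 0) - (g s - g 0)) d‖ ≤ 2 * C := by
    refine norm_cfcₙ_le fun s _ => ?_
    have : (f s - f 0) - (g s - g 0) = (f s - g s) - (f 0 - g 0) := by ring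
    rw [this, Real.norm_eq_abs]
    calc _ ≤ |f s - g s| + |f 0 - g 0| := abs_sub _ _
      _ ≤ 2 * C := by linarith [hC s, hC 0]
  calc _ ≤ ‖(f 0 - g 0) • b‖ + ‖cfcₙ (fun s => (f s - f 0) - (g s - g 0)) d * b‖ :=
        norm_add_le _ _
    _ ≤ C * ‖b‖ + 2 * C * ‖b‖ := add_le_add h1 (norm_mul_le_of_le h2 le_rfl)
    _ = 3 * C * ‖b‖ := by ring

theorem continuous_Lf {d : A} {F : ℝ → ℝ → ℝ} (hF : ∀ t, Continuous (F t))
    (hL : ∀ s t r, |F s r - F t r| ≤ |s - t|) (b : A) : Continuous fun t => Lf d (F t) b := by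
  refine Metric.continuous_iff.2 fun t ε hε => ⟨ε / (3 * ‖b‖ + 1), by positivity, fun s hs => ?_⟩
  rw [dist_eq_norm] at hs ⊢
  have h1 := norm_Lf_sub (d := d) (hF s) (hF t) (hL s t) b
  have h2 : 3 * |s - t| * ‖b‖ = |s - t| * (3 * ‖b‖) := by ring
  rw [h2] at h1
  rw [Real.norm_eq_abs, lt_div_iff₀ (by positivity)] at hs
  have h3 : |s - t| * (3 * ‖b‖) ≤ |s - t| * (3 * ‖b‖ + 1) :=
    mul_le_mul_of_nonneg_left (by linarith) (abs_nonneg _)
  linarith

/-- `(d - t)_+ b (d - t)_-` -/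
noncomputable def W (d : A) (t : ℝ) (b : A) : A := Rf d (Lf d (xp t) b) (yp t)

theorem W_mul_W (d : A) {s t : ℝ} (h : s ≤ t) (b c : A) : W d s b * W d t c = 0 := by
  have h1 : W d t c = Lf d (xp t) (Rf d c (yp t)) := Rf_Lf d _ _ _
  rw [h1]
  exact Rf_mul_Lf (xp_cont t) (yp_cont s) (yp_mul_xp h) _ _

theorem W_her {a d b : A} (hd : IsSelfAdjoint d) (hda : d ∈ her a) (t : ℝ) (hb : b ∈ her a) :
    W d t b ∈ her a :=
  her_Rf hd hda (yp_cont t) (her_Lf hd hda (xp_cont t) hb)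

theorem W_mid (d : A) (t : ℝ) (a w : A) :
    Lf d (xp t) a * w * Rf d a (yp t) = W d t (a * w * a) := by
  rw [W, Lf_mul, Lf_mul, mul_Rf]

theorem norm_le_of_mem_quasispectrum {d : A} (hd : IsSelfAdjoint d) {s : ℝ}
    (hs : s ∈ quasispectrum ℝ d) : |s| ≤ ‖d‖ := by
  have := norm_apply_le_norm_cfcₙ (fun s : ℝ => s) d hs (by fun_prop) rfl
  rwa [cfcₙ_id' ℝ d, Real.norm_eq_abs] at this

theorem Lf_xp_norm {d : A} (hd : IsSelfAdjoint d) (b : A) : Lf d (xp ‖d‖) b = 0 := by
  have h0 : xp ‖d‖ 0 = 0 := by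
    unfold xp; exact max_eq_right (by linarith [norm_nonneg d])
  rw [Lf, h0, zero_smul, zero_add]
  have : cfcₙ (fun s => xp ‖d‖ s - 0) d = cfcₙ (fun _ => (0 : ℝ)) d := by
    refine cfcₙ_congr fun s hs => ?_
    have h1 := (abs_le.1 (norm_le_of_mem_quasispectrum hd hs)).2
    simp only [xp, sub_zero]
    exact max_eq_right (by linarith)
  rw [this, cfcₙ_const_zero, zero_mul]

theorem Lf_yp_norm {d : A} (hd : IsSelfAdjoint d) (b : A) : Lf d (yp (-‖d‖)) b = 0 := by
  have h0 : yp (-‖d‖) 0 = 0 := by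
    unfold yp; exact max_eq_right (by linarith [norm_nonneg d])
  rw [Lf, h0, zero_smul, zero_add]
  have : cfcₙ (fun s => yp (-‖d‖) s - 0) d = cfcₙ (fun _ => (0 : ℝ)) d := by
    refine cfcₙ_congr fun s hs => ?_
    have h1 := (abs_le.1 (norm_le_of_mem_quasispectrum hd hs)).1
    simp only [yp, sub_zero]
    exact max_eq_right (by linarith)
  rw [this, cfcₙ_const_zero, zero_mul]

theorem Lf_sub_Lf {d : A} (hd : IsSelfAdjoint d) (t : ℝ) (b : A) :
    Lf d (xp t) b - Lf d (yp t) b = d * b - t • b := by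
  have hx := xp_cont t
  have hy := yp_cont t
  have h : ∀ s, xp t s - yp t s = s - t := fun s => by
    unfold xp yp
    rcases le_total s t with h | h
    · rw [max_eq_right (by linarith : s - t ≤ 0), max_eq_left (by linarith : 0 ≤ t - s)]; ring
    · rw [max_eq_left (by linarith : 0 ≤ s - t), max_eq_right (by linarith : t - s ≤ 0)]; ring
  have e1 : cfcₙ (fun s => xp t s - xp t 0) d - cfcₙ (fun s => yp t s - yp t 0) d = d := by
    rw [← cfcₙ_sub (fun s => xp t s - xp t 0) (fun s => yp t s - yp t 0) d (by fun_prop) (by simp)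
      (by fun_prop) (by simp)]
    have : (fun s => xp t s - xp t 0 - (yp t s - yp t 0)) = fun s => s := by
      funext s
      linear_combination h s - h 0
    rw [this, cfcₙ_id' ℝ d]
  have e2 : Lf d (xp t) b - Lf d (yp t) b = (xp t 0 - yp t 0) • b +
      (cfcₙ (fun s => xp t s - xp t 0) d - cfcₙ (fun s => yp t s - yp t 0) d) * b := by
    simp only [Lf, sub_smul, sub_mul]
    abel
  rw [e2, e1, h 0, zero_sub, neg_smul]
  abel

variable [PartialOrder A] [StarOrderedRing A]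

/-- If `d` is nowhere scalar where `c` does not vanish, then `c` is in every closed ideal
containing all `(d - t)_+ a w a (d - t)_-`. -/
theorem mem_of_W {a : A} (ha : star a = a) {c : A} (hc : 0 ≤ c) {d : A} (hd : IsSelfAdjoint d)
    (H : ∀ P : Submodule ℂ A, IsClosedIdeal P → c ∉ P → ∀ l : ℝ, d * a - l • a ∉ P)
    {K : Submodule ℂ A} (hK : IsClosedIdeal K) (hW : ∀ t w, W d t (a * w * a) ∈ K) : c ∈ K := by
  by_contra hcK
  obtain ⟨B, i1, i2, i3, φ, hφ, hφK, hφc, hprime⟩ := exists_prime_quotient hK hc hcK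
  -- the kernel of `φ`
  have hφcont : Continuous φ := map_continuous φ
  let P : Submodule ℂ A :=
    { carrier := {x | φ x = 0}
      zero_mem' := map_zero φ
      add_mem' := fun {x y} hx hy => by
        have h1 : φ x = 0 := hx
        have h2 : φ y = 0 := hy
        show φ (x + y) = 0
        rw [map_add, h1, h2, add_zero]
      smul_mem' := fun r x hx => by
        have h1 : φ x = 0 := hx
        show φ (r • x) = 0
        rw [map_smul, h1, smul_zero] }
  have hP : IsClosedIdeal P := by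
    refine ⟨isClosed_singleton.preimage hφcont, fun r x hx => ?_⟩
    have h1 : φ x = 0 := hx
    exact ⟨by show φ (r * x) = 0; rw [map_mul, h1, mul_zero],
      by show φ (x * r) = 0; rw [map_mul, h1, zero_mul]⟩
  let S : Set ℝ := {t | φ (Lf d (yp t) a) = 0}
  let T : Set ℝ := {t | φ (Lf d (xp t) a) = 0}
  have hS : IsClosed S := isClosed_singleton.preimage
    (hφcont.comp (continuous_Lf yp_cont (fun s t r => (lip s t r).2) a))
  have hT : IsClosed T := isClosed_singleton.preimage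
    (hφcont.comp (continuous_Lf xp_cont (fun s t r => (lip s t r).1) a))
  have hST : (Set.univ : Set ℝ) ⊆ S ∪ T := by
    intro t _
    by_contra hcon
    rw [Set.mem_union, not_or] at hcon
    obtain ⟨h1, h2⟩ := hcon
    have h3 : φ (Rf d a (yp t)) ≠ 0 := by
      intro h0
      refine h1 ?_
      show φ (Lf d (yp t) a) = 0
      have h4 : Lf d (yp t) a = star (Rf d a (yp t)) := by rw [star_Rf, ha]
      rw [h4, map_star, h0, star_zero]
    obtain ⟨w, hw⟩ := hprime _ _ h2 h3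
    rw [W_mid] at hw
    exact hw (hφK _ (hW t w))
  have hSne : (Set.univ ∩ S).Nonempty := ⟨-‖d‖, Set.mem_univ _, by
    show φ (Lf d (yp (-‖d‖)) a) = 0
    rw [Lf_yp_norm hd, map_zero]⟩
  have hTne : (Set.univ ∩ T).Nonempty := ⟨‖d‖, Set.mem_univ _, by
    show φ (Lf d (xp ‖d‖) a) = 0
    rw [Lf_xp_norm hd, map_zero]⟩
  obtain ⟨l, -, hl1, hl2⟩ := isPreconnected_closed_iff.1 isPreconnected_univ S T hS hT hST hSne hTne
  refine H P hP hφc l ?_
  show φ (d * a - l • a) = 0
  have h1 : φ (Lf d (yp l) a) = 0 := hl1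
  have h2 : φ (Lf d (xp l) a) = 0 := hl2
  rw [← Lf_sub_Lf hd, map_sub, h1, h2, sub_zero]

/-- Nowhere scalar elements give two orthogonal elements. -/
theorem orth_of_nowhere_scalar {a : A} (ha : 0 ≤ a) {c : A} (hc : 0 ≤ c) {d : A}
    (hd : IsSelfAdjoint d) (hda : d ∈ closure (Set.range fun w => a * w * a))
    (H : ∀ P : Submodule ℂ A, IsClosedIdeal P → c ∉ P → ∀ l : ℝ, d * a - l • a ∉ P)
    {ε : ℝ} (hε : 0 < ε) :
    ∃ b₁ b₂ : A, 0 ≤ b₁ ∧ 0 ≤ b₂ ∧ b₁ * b₂ = 0 ∧
      b₁ ∈ closure (Set.range fun w => a * w * a) ∧ b₂ ∈ closure (Set.range fun w => a * w * a) ∧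
      InId b₁ (cfcₙ (fun t : ℝ => max (t - ε) 0) c) ∧
      InId b₂ (cfcₙ (fun t : ℝ => max (t - ε) 0) c) := by
  classical
  have has : star a = a := (IsSelfAdjoint.of_nonneg ha).star_eq
  have hda' : d ∈ her a := hda
  let N : Submodule ℂ A :=
    { carrier := {x | ∃ F : Finset (ℝ × A), ∀ P : Submodule ℂ A, IsClosedIdeal P →
        (∀ p ∈ F, W d p.1 (a * p.2 * a) ∈ P) → x ∈ P}
      zero_mem' := ⟨∅, fun P _ _ => P.zero_mem⟩
      add_mem' := by
        rintro x y ⟨F, hF⟩ ⟨G, hG⟩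
        exact ⟨F ∪ G, fun P hP h => P.add_mem
          (hF P hP fun p hp => h p (Finset.mem_union_left _ hp))
          (hG P hP fun p hp => h p (Finset.mem_union_right _ hp))⟩
      smul_mem' := by
        rintro r x ⟨F, hF⟩
        exact ⟨F, fun P hP h => P.smul_mem _ (hF P hP h)⟩ }
  have hN : ∀ r x : A, x ∈ N → r * x ∈ N ∧ x * r ∈ N := by
    rintro r x ⟨F, hF⟩
    exact ⟨⟨F, fun P hP h => (hP.2 _ _ (hF P hP h)).1⟩, ⟨F, fun P hP h => (hP.2 _ _ (hF P hP h)).2⟩⟩
  have hK := isClosedIdeal_closure hN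
  have hcK : c ∈ N.topologicalClosure := by
    refine mem_of_W has hc hd H hK fun t w => N.le_topologicalClosure ?_
    exact ⟨{(t, w)}, fun P _ h => h (t, w) (Finset.mem_singleton_self _)⟩
  obtain ⟨y, ⟨F, hF⟩, hy⟩ := Metric.mem_closure_iff.1 (show c ∈ closure (N : Set A) from hcK) ε hε
  rw [dist_eq_norm] at hy
  let w : F → A := fun p => W d p.1.1 (a * p.1.2 * a)
  let t : F → ℝ := fun p => p.1.1
  have hw : ∀ i j, t i ≤ t j → w i * w j = 0 := fun i j h => W_mul_W d h _ _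
  set h : A := ∑ j, (w j * star (w j) - star (w j) * w j) with hh
  have hwh : ∀ i, w i ∈ her a := fun i => W_her hd hda' _ (her_self a _)
  have hhh : h ∈ her a := (her a).sum_mem fun j _ => (her a).sub_mem
    (her_mul (hwh j) (her_star has (hwh j))) (her_mul (her_star has (hwh j)) (hwh j))
  have hs : IsSelfAdjoint h := by
    rw [IsSelfAdjoint, hh, star_sum]
    refine Finset.sum_congr rfl fun j _ => ?_
    simp only [star_sub, star_mul, star_star]
  have hkey : ∀ P : Submodule ℂ A, IsClosedIdeal P → (h⁺ ∈ P ∨ h⁻ ∈ P) →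
      cfcₙ (fun t : ℝ => max (t - ε) 0) c ∈ P := by
    intro P hP hmem
    have h1 : y ∈ P := hF P hP fun p hp => triangular w t hw hh hP hmem ⟨p, hp⟩
    exact hP.cut_mem hc h1 hy
  refine ⟨h⁺, h⁻, CFC.posPart_nonneg h, CFC.negPart_nonneg h, CFC.posPart_mul_negPart h, ?_, ?_,
    ?_, ?_⟩
  · exact her_cfc hs hhh (by fun_prop) (by simp)
  · exact her_cfc hs hhh (by fun_prop) (by simp)
  · obtain ⟨I, hI, hIm⟩ := isClosedIdeal_inId (h⁺)
    exact (hIm _).1 (hkey I hI (Or.inl ((hIm _).2 (InId.refl _))))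
  · obtain ⟨I, hI, hIm⟩ := isClosedIdeal_inId (h⁻)
    exact (hIm _).1 (hkey I hI (Or.inr ((hIm _).2 (InId.refl _))))

end

end Vale.Agent.P133.R2.H474
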